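import Vale.Agent.P290.H580.Split

/-! The Cousin problem for `GL₂(ℂ)` near a compact convex set (Cartan's lemma). -/

open Set Filter Metric
open scoped Topology NNReal

namespace Vale.Agent.P290.H245

open Vale.Agent.P290 Vale.Agent.P290.K

section algebra
variable {R : Type*} [NormedRing R] [NormedAlgebra ℂ R] [CompleteSpace R]

/-- An entire map with values in the units of a Banach algebra, with a holomorphic local inverse
near `1` (the exponential and the logarithm). -/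
theorem exists_exp_log :
    ∃ (E L : R → R) (ε : ℝ), 0 < ε ∧ Differentiable ℂ E ∧ (∀ x, IsUnit (E x)) ∧
      ∀ x, ‖x - 1‖ < ε → DifferentiableAt ℂ L x ∧ E (L x) = x := by
  let : NormedAlgebra ℚ R := NormedAlgebra.restrictScalars ℚ ℂ R
  have han : ∀ x : R, AnalyticAt ℂ (NormedSpace.exp : R → R) x := NormedSpace.exp_analytic (𝕂 := ℂ)
  have hcd : ContDiffAt ℂ ⊤ (NormedSpace.exp : R → R) 0 := (han 0).contDiffAt
  have hfd : HasFDerivAt (NormedSpace.exp : R → R)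
      ((ContinuousLinearEquiv.refl ℂ R : R ≃L[ℂ] R) : R →L[ℂ] R) 0 :=
    hasFDerivAt_exp_zero
  set Λ := hcd.toOpenPartialHomeomorph _ hfd (by simp) with hΛ
  have hcoe : (Λ : R → R) = NormedSpace.exp := ContDiffAt.toOpenPartialHomeomorph_coe hcd hfd (by simp)
  have h0 : (0 : R) ∈ Λ.source := hcd.mem_toOpenPartialHomeomorph_source hfd (by simp)
  have h1 : (1 : R) ∈ Λ.target := by
    have := Λ.map_source h0
    rwa [hcoe, NormedSpace.exp_zero] at this
  have hs1 : Λ.symm 1 = 0 := by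
    have := Λ.left_inv h0
    rwa [hcoe, NormedSpace.exp_zero] at this
  have hcs : ContDiffAt ℂ ⊤ Λ.symm (1 : R) := by
    refine Λ.contDiffAt_symm (f₀' := ContinuousLinearEquiv.refl ℂ R) h1 ?_ ?_
    · rw [hs1, hcoe]; exact hfd
    · rw [hs1, hcoe]; exact hcd
  have hev : ∀ᶠ x in 𝓝 (1 : R), DifferentiableAt ℂ Λ.symm x ∧ NormedSpace.exp (Λ.symm x) = x := by
    have h2 : ∀ᶠ x in 𝓝 (1 : R), ContDiffAt ℂ 1 Λ.symm x :=
      (hcs.of_le (by simp)).eventually (by simp)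
    filter_upwards [h2, Λ.open_target.mem_nhds h1] with x hx hx'
    refine ⟨hx.differentiableAt (by simp), ?_⟩
    have := Λ.right_inv hx'
    rwa [hcoe] at this
  obtain ⟨ε, hε, hball⟩ := Metric.eventually_nhds_iff.1 hev
  refine ⟨NormedSpace.exp, Λ.symm, ε, hε, fun x => (han x).differentiableAt,
    NormedSpace.isUnit_exp, fun x hx => hball (by rwa [dist_eq_norm])⟩

end algebra

set_option linter.unusedSectionVars false

section appr
variable {V : Type} [NormedAddCommGroup V] [NormedSpace ℂ V]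
  {R : Type} [NormedRing R] [NormedAlgebra ℂ R] [CompleteSpace R]

/-- `M` can be approximated on `K` by entire maps with invertible values -/
def Appr (K : Set V) (M : V → R) : Prop :=
  ∀ ε > 0, ∃ N : V → R, Differentiable ℂ N ∧ (∀ z, IsUnit (N z)) ∧ ∀ z ∈ K, ‖N z - M z‖ < ε

theorem Appr.congr {K : Set V} {M M' : V → R} (h : Appr K M) (hM : ∀ z ∈ K, M z = M' z) :
    Appr K M' := by
  intro ε hε
  obtain ⟨N, h1, h2, h3⟩ := h ε hε
  exact ⟨N, h1, h2, fun z hz => by rw [← hM z hz]; exact h3 z hz⟩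

theorem Appr.const {K : Set V} {c : R} (hc : IsUnit c) : Appr K (fun _ => c) :=
  fun ε hε => ⟨fun _ => c, differentiable_const _, fun _ => hc, fun z _ => by simpa using hε⟩

theorem exists_bound {K : Set V} (hK : IsCompact K) {M : V → R} (hM : ContinuousOn M K) :
    ∃ B > 0, ∀ z ∈ K, ‖M z‖ ≤ B := by
  obtain ⟨B, hB⟩ := hK.exists_bound_of_continuousOn hM
  exact ⟨max B 1, lt_of_lt_of_le one_pos (le_max_right _ _), fun z hz => (hB z hz).trans (le_max_left _ _)⟩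

theorem Appr.mul {K : Set V} (hK : IsCompact K) {M M' : V → R} (hM : ContinuousOn M K)
    (hM' : ContinuousOn M' K) (h : Appr K M) (h' : Appr K M') : Appr K (fun z => M z * M' z) := by
  intro ε hε
  obtain ⟨B, hB, hMB⟩ := exists_bound hK hM
  obtain ⟨B', hB', hMB'⟩ := exists_bound hK hM'
  -- N N' - M M' = (N - M) N' + M (N' - M')
  obtain ⟨N', h1', h2', h3'⟩ := h' (min 1 (ε / (2 * B))) (by positivity)
  obtain ⟨N, h1, h2, h3⟩ := h (ε / (2 * (B' + 1))) (by positivity)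
  refine ⟨fun z => N z * N' z, h1.mul h1', fun z => (h2 z).mul (h2' z), fun z hz => ?_⟩
  have e1 : N z * N' z - M z * M' z = (N z - M z) * N' z + M z * (N' z - M' z) := by noncomm_ring
  have b1 : ‖N' z‖ ≤ B' + 1 := by
    have : N' z = M' z + (N' z - M' z) := by abel
    rw [this]
    refine (norm_add_le _ _).trans (add_le_add (hMB' z hz) ((h3' z hz).le.trans (min_le_left _ _)))
  have b2 : ‖N' z - M' z‖ < ε / (2 * B) := (h3' z hz).trans_le (min_le_right _ _)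
  have b3 := h3 z hz
  rw [e1]
  have c1 : ‖(N z - M z) * N' z‖ < ε / 2 ∨ ‖(N z - M z) * N' z‖ ≤ ε / 2 := by
    right
    calc ‖(N z - M z) * N' z‖ ≤ ‖N z - M z‖ * ‖N' z‖ := norm_mul_le _ _
      _ ≤ ε / (2 * (B' + 1)) * (B' + 1) := by gcongr
      _ = ε / 2 := by field_simp
  have c2 : ‖M z * (N' z - M' z)‖ < ε / 2 := by
    calc ‖M z * (N' z - M' z)‖ ≤ ‖M z‖ * ‖N' z - M' z‖ := norm_mul_le _ _
      _ ≤ B * ‖N' z - M' z‖ := by gcongr; exact hMB z hz
      _ < B * (ε / (2 * B)) := by gcongr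
      _ = ε / 2 := by field_simp
  have c1' : ‖(N z - M z) * N' z‖ ≤ ε / 2 := c1.elim le_of_lt id
  calc _ ≤ ‖(N z - M z) * N' z‖ + ‖M z * (N' z - M' z)‖ := norm_add_le _ _
    _ < ε / 2 + ε / 2 := by linarith
    _ = ε := by ring

end appr

section appr2
variable {V : Type} [NormedAddCommGroup V] [NormedSpace ℂ V] [FiniteDimensional ℂ V]
  {R : Type} [NormedRing R] [NormedAlgebra ℂ R] [FiniteDimensional ℂ R]

/-- maps close to `1` -/
theorem exists_appr_near_one (R : Type) [NormedRing R] [NormedAlgebra ℂ R]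
    [FiniteDimensional ℂ R] : ∃ ε : ℝ, 0 < ε ∧ ∀ {V : Type} [NormedAddCommGroup V]
      [NormedSpace ℂ V] [FiniteDimensional ℂ V] {K : Set V}, Good K → ∀ M : V → R, HolNear K M →
        (∀ z ∈ K, ‖M z - 1‖ < ε) → Appr K M := by
  have : CompleteSpace R := FiniteDimensional.complete ℂ R
  obtain ⟨E, L, ε, hε, hE, hEu, hEL⟩ := exists_exp_log (R := R)
  refine ⟨ε, hε, fun {V} _ _ _ {K} hK M hM hM1 => ?_⟩
  intro κ hκ
  have hMc : ContinuousOn M K := fun z hz =>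
    (hM.self_of_nhdsSet z hz).continuousAt.continuousWithinAt
  have hc : HolNear K (L ∘ M) := by
    refine eventually_nhdsSet_iff_forall.2 fun z hz => ?_
    have h1 := eventually_nhdsSet_iff_forall.1 hM z hz
    have h2 : ∀ᶠ y in 𝓝 z, ‖M y - 1‖ < ε := by
      have : ContinuousAt (fun y => ‖M y - 1‖) z :=
        (h1.self_of_nhds.continuousAt.sub continuousAt_const).norm
      exact this.eventually (gt_mem_nhds (hM1 z hz))
    filter_upwards [h1, h2] with y hy hy'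
    exact (hEL _ hy').1.comp y hy
  set c := L ∘ M with hcdef
  have hcK : ContinuousOn c K := fun z hz =>
    (hc.self_of_nhdsSet z hz).continuousAt.continuousWithinAt
  have hcomp : IsCompact ((fun y : R => (y, y)) '' (c '' K)) :=
    (hK.1.image_of_continuousOn hcK).image (by fun_prop)
  set U : Set (R × R) := {p | ‖E p.1 - E p.2‖ < κ} with hU
  have hUo : IsOpen U := by
    have : Continuous (fun p : R × R => ‖E p.1 - E p.2‖) :=
      ((hE.continuous.comp continuous_fst).sub (hE.continuous.comp continuous_snd)).norm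
    exact isOpen_lt this continuous_const
  have hsub : (fun y : R => (y, y)) '' (c '' K) ⊆ U := by
    rintro _ ⟨y, -, rfl⟩
    change ‖E y - E y‖ < κ
    rw [sub_self, norm_zero]
    exact hκ
  obtain ⟨δ, hδ, hδU⟩ := hcomp.exists_thickening_subset_open hUo hsub
  obtain ⟨p, hp, hpc⟩ := okaWeil_vec hK.1 hK.2 hc δ hδ
  refine ⟨fun z => E (p z), hE.comp hp, fun z => hEu _, fun z hz => ?_⟩
  have h1 : (p z, c z) ∈ thickening δ ((fun y : R => (y, y)) '' (c '' K)) := by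
    rw [mem_thickening_iff]
    refine ⟨(c z, c z), ⟨c z, ⟨z, hz, rfl⟩, rfl⟩, ?_⟩
    rw [Prod.dist_eq, dist_self, dist_eq_norm]
    exact max_lt (hpc z hz) hδ
  have h2 : ‖E (p z) - E (c z)‖ < κ := hδU h1
  have h3 : E (c z) = M z := (hEL _ (hM1 z hz)).2
  rwa [h3] at h2

/-- A holomorphic map with invertible values near a compact convex set can be approximated by
entire maps with invertible values. -/
theorem appr_of_good {K : Set V} (hK : Good K) {M : V → R} (hM : HolNear K M)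
    (hMu : ∀ z ∈ K, IsUnit (M z)) : Appr K M := by
  have : CompleteSpace R := FiniteDimensional.complete ℂ R
  have : ProperSpace V := FiniteDimensional.proper ℂ V
  rcases K.eq_empty_or_nonempty with rfl | ⟨z₀, hz₀⟩
  · exact fun ε hε => ⟨fun _ => 1, differentiable_const _, fun _ => isUnit_one, by simp⟩
  obtain ⟨ε, hε, key⟩ := exists_appr_near_one R
  -- a convex neighbourhood
  have hMev : ∀ᶠ z in 𝓝ˢ K, DifferentiableAt ℂ M z ∧ IsUnit (M z) := by
    refine eventually_nhdsSet_iff_forall.2 fun z hz => ?_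
    have h1 := eventually_nhdsSet_iff_forall.1 hM z hz
    exact h1.and (h1.self_of_nhds.continuousAt.eventually (Units.isOpen.mem_nhds (hMu z hz)))
  obtain ⟨O, hO, hKO, hOp⟩ := eventually_nhdsSet_iff_exists.1 hMev
  obtain ⟨δ, hδ, hδO⟩ := hK.1.exists_thickening_subset_open hO hKO
  set T := thickening δ K with hT
  have hTo : IsOpen T := isOpen_thickening
  have hTc : Convex ℝ T := hK.2.thickening δ
  have hKT : K ⊆ T := self_subset_thickening hδ K
  have hTp : ∀ z ∈ T, DifferentiableAt ℂ M z ∧ IsUnit (M z) := fun z hz => hOp z (hδO hz)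
  -- the contraction
  set φ : ℝ → V → V := fun s z => z₀ + (s : ℂ) • (z - z₀) with hφ
  have hφT : ∀ s ∈ Icc (0 : ℝ) 1, ∀ z ∈ T, φ s z ∈ T := by
    intro s hs z hz
    have h1 := hTc.add_smul_sub_mem (hKT hz₀) hz hs
    have h2 : z₀ + s • (z - z₀) = φ s z := by
      simp only [hφ]
      rw [Complex.coe_smul]
    rwa [h2] at h1
  have hφc : Continuous (fun p : ℝ × V => φ p.1 p.2) := by
    simp only [hφ]
    have h1 : Continuous (fun p : ℝ × V => ((p.1 : ℝ) : ℂ)) := Complex.continuous_ofReal.comp continuous_fst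
    exact continuous_const.add (h1.smul (continuous_snd.sub continuous_const))
  have hφd : ∀ s, Differentiable ℂ (φ s) := by
    intro s
    simp only [hφ]
    fun_prop
  have hMs : ∀ s ∈ Icc (0 : ℝ) 1, ∀ z ∈ T, DifferentiableAt ℂ (fun z => M (φ s z)) z := by
    intro s hs z hz
    exact (hTp _ (hφT s hs z hz)).1.comp z (hφd s z)
  have hMsu : ∀ s ∈ Icc (0 : ℝ) 1, ∀ z ∈ T, IsUnit (M (φ s z)) := fun s hs z hz =>
    (hTp _ (hφT s hs z hz)).2
  -- uniform continuity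
  set Q : Set ((ℝ × ℝ) × V) := (Icc (0 : ℝ) 1 ×ˢ Icc (0 : ℝ) 1) ×ˢ K with hQ
  have hQc : IsCompact Q := (isCompact_Icc.prod isCompact_Icc).prod hK.1
  set Φ : (ℝ × ℝ) × V → R := fun x => Ring.inverse (M (φ x.1.1 x.2)) * M (φ x.1.2 x.2) with hΦ
  have hMc : ∀ x ∈ T, ContinuousAt M x := fun x hx => (hTp x hx).1.continuousAt
  have hΦc : ContinuousOn Φ Q := by
    intro x hx
    obtain ⟨⟨hx1, hx2⟩, hx3⟩ := hx
    have a1 : ContinuousAt (fun x : (ℝ × ℝ) × V => M (φ x.1.1 x.2)) x := by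
      have h1 : Continuous (fun x : (ℝ × ℝ) × V => φ x.1.1 x.2) :=
        hφc.comp ((continuous_fst.comp continuous_fst).prodMk continuous_snd)
      exact ContinuousAt.comp (f := fun x : (ℝ × ℝ) × V => φ x.1.1 x.2)
        (hMc _ (hφT _ hx1 _ (hKT hx3))) h1.continuousAt
    have a2 : ContinuousAt (fun x : (ℝ × ℝ) × V => M (φ x.1.2 x.2)) x := by
      have h1 : Continuous (fun x : (ℝ × ℝ) × V => φ x.1.2 x.2) :=
        hφc.comp ((continuous_snd.comp continuous_fst).prodMk continuous_snd)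
      exact ContinuousAt.comp (f := fun x : (ℝ × ℝ) × V => φ x.1.2 x.2)
        (hMc _ (hφT _ hx2 _ (hKT hx3))) h1.continuousAt
    have a3 : ContinuousAt (fun x : (ℝ × ℝ) × V => Ring.inverse (M (φ x.1.1 x.2))) x := by
      have h1 : ContinuousAt Ring.inverse (M (φ x.1.1 x.2)) :=
        (differentiableAt_inverse (𝕜 := ℂ) (hMsu _ hx1 _ (hKT hx3))).continuousAt
      exact ContinuousAt.comp (f := fun x : (ℝ × ℝ) × V => M (φ x.1.1 x.2)) h1 a1
    exact (a3.mul a2).continuousWithinAt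
  have hunif : UniformContinuousOn Φ Q := hQc.uniformContinuousOn_of_continuous hΦc
  obtain ⟨η, hη, hηu⟩ := Metric.uniformContinuousOn_iff.1 hunif ε hε
  obtain ⟨n, hn⟩ := exists_nat_gt (1 / η)
  have hn0 : (0 : ℝ) < n := lt_trans (by positivity) hn
  have hstep : ∀ s ∈ Icc (0 : ℝ) 1, ∀ t ∈ Icc (0 : ℝ) 1, |s - t| < η → ∀ z ∈ K,
      ‖Φ ((s, t), z) - 1‖ < ε := by
    intro s hs t ht hst z hz
    have h1 := hηu ((s, t), z) ⟨⟨hs, ht⟩, hz⟩ ((s, s), z) ⟨⟨hs, hs⟩, hz⟩ (by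
      simp only [Prod.dist_eq, dist_self, Real.dist_eq]
      rw [abs_sub_comm] at hst
      simp [hst])
    rw [dist_eq_norm] at h1
    have h2 : Φ ((s, s), z) = 1 := by
      simp only [hΦ]
      exact Ring.inverse_mul_cancel _ (hMsu s hs z (hKT hz))
    rwa [h2] at h1
  have hind : ∀ i : ℕ, i ≤ n → Appr K (fun z => M (φ (i / n) z)) := by
    intro i
    induction i with
    | zero =>
      intro _
      refine (Appr.const (K := K) (hMu z₀ hz₀)).congr fun z _ => ?_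
      simp [hφ]
    | succ i ih =>
      intro hi
      have hs : ((i : ℝ) / n) ∈ Icc (0 : ℝ) 1 := by
        refine ⟨by positivity, ?_⟩
        rw [div_le_one hn0]
        exact_mod_cast (Nat.le_succ i).trans hi
      have ht : (((i + 1 : ℕ) : ℝ) / n) ∈ Icc (0 : ℝ) 1 := by
        refine ⟨by positivity, ?_⟩
        rw [div_le_one hn0]
        exact_mod_cast hi
      have hst : |(i : ℝ) / n - ((i + 1 : ℕ) : ℝ) / n| < η := by
        have : (i : ℝ) / n - ((i + 1 : ℕ) : ℝ) / n = - (1 / n) := by push_cast; ring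
        rw [this, abs_neg, abs_of_pos (by positivity)]
        exact (one_div_lt hη hn0).1 hn
      have hratio : Appr K (fun z => Φ (((i : ℝ) / n, ((i + 1 : ℕ) : ℝ) / n), z)) := by
        refine key hK _ ?_ (hstep _ hs _ ht hst)
        filter_upwards [hTo.mem_nhdsSet.2 hKT] with z hz
        exact ((hMs _ hs z hz).inverse (hMsu _ hs z hz)).mul (hMs _ ht z hz)
      have hcont : ∀ s ∈ Icc (0 : ℝ) 1, ContinuousOn (fun z => M (φ s z)) K := fun s hs z hz =>
        (hMs s hs z (hKT hz)).continuousAt.continuousWithinAt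
      have hcont' : ContinuousOn (fun z => Φ (((i : ℝ) / n, ((i + 1 : ℕ) : ℝ) / n), z)) K :=
        fun z hz => (((hMs _ hs z (hKT hz)).inverse
          (hMsu _ hs z (hKT hz))).mul (hMs _ ht z (hKT hz))).continuousAt.continuousWithinAt
      refine (Appr.mul hK.1 (hcont _ hs) hcont' (ih ((Nat.le_succ i).trans hi)) hratio).congr
        fun z hz => ?_
      simp only [hΦ]
      exact Ring.mul_inverse_cancel_left _ _ (hMsu _ hs z (hKT hz))
  refine (hind n le_rfl).congr fun z _ => ?_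
  have : (n : ℝ) / n = 1 := div_self hn0.ne'
  simp [hφ, this]

end appr2

section cols

/-- the linear map with columns `u` and `v` -/
noncomputable def mk (u v : C2) : C2 →L[ℂ] C2 :=
  (ContinuousLinearMap.fst ℂ ℂ ℂ).smulRight u + (ContinuousLinearMap.snd ℂ ℂ ℂ).smulRight v

theorem mk_apply (u v x : C2) : mk u v x = x.1 • u + x.2 • v := by
  simp [mk]

theorem mk_one : mk (1, 0) (0, 1) = 1 := by
  ext <;> simp [mk_apply]

theorem mk_sub_one (u v : C2) : mk ((1, 0) + u) ((0, 1) + v) - 1 = mk u v := by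
  rw [← mk_one]
  ext <;> simp [mk_apply]

theorem mk_norm_le (u v : C2) : ‖mk u v‖ ≤ ‖u‖ + ‖v‖ := by
  refine ContinuousLinearMap.opNorm_le_bound _ (by positivity) fun x => ?_
  rw [mk_apply]
  calc ‖x.1 • u + x.2 • v‖ ≤ ‖x.1 • u‖ + ‖x.2 • v‖ := norm_add_le _ _
    _ = ‖x.1‖ * ‖u‖ + ‖x.2‖ * ‖v‖ := by rw [norm_smul, norm_smul]
    _ ≤ ‖x‖ * ‖u‖ + ‖x‖ * ‖v‖ := by
        gcongr
        · exact norm_fst_le x
        · exact norm_snd_le x
    _ = (‖u‖ + ‖v‖) * ‖x‖ := by ring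

theorem mk_isUnit {u v : C2} (hu : ‖u‖ < 1 / 4) (hv : ‖v‖ < 1 / 4) :
    IsUnit (mk ((1, 0) + u) ((0, 1) + v)) := by
  have h1 : mk ((1, 0) + u) ((0, 1) + v) = 1 - (- mk u v) := by
    rw [sub_neg_eq_add, ← mk_sub_one u v]; abel
  rw [h1]
  refine isUnit_one_sub_of_norm_lt_one ?_
  rw [norm_neg]
  refine (mk_norm_le u v).trans_lt ?_
  linarith

variable {V : Type} [NormedAddCommGroup V] [NormedSpace ℂ V]

theorem mk_differentiableAt {u v : V → C2} {z : V} (hu : DifferentiableAt ℂ u z)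
    (hv : DifferentiableAt ℂ v z) : DifferentiableAt ℂ (fun z => mk (u z) (v z)) z := by
  have h1 : DifferentiableAt ℂ (fun z => (ContinuousLinearMap.fst ℂ ℂ ℂ).smulRight (u z)) z :=
    ((ContinuousLinearMap.smulRightL ℂ C2 C2 (ContinuousLinearMap.fst ℂ ℂ ℂ)).differentiableAt).comp
      z hu
  have h2 : DifferentiableAt ℂ (fun z => (ContinuousLinearMap.snd ℂ ℂ ℂ).smulRight (v z)) z :=
    ((ContinuousLinearMap.smulRightL ℂ C2 C2 (ContinuousLinearMap.snd ℂ ℂ ℂ)).differentiableAt).comp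
      z hv
  exact h1.add h2

end cols

section cartan
variable {V : Type} [NormedAddCommGroup V] [NormedSpace ℂ V] [FiniteDimensional ℂ V]

/-- Splitting of one column. -/
theorem split_col {A B W : Set V} (hA : Good A) (hB : Good B)
    (hAB : Convex ℝ (A ∪ B)) (hW : IsOpen W) (hABW : A ∩ B ⊆ W) (ε : ℝ) (hε : 0 < ε) :
    ∃ δ > 0, ∀ M : V → C2 →L[ℂ] C2, DifferentiableOn ℂ M W → (∀ z ∈ W, ‖M z - 1‖ ≤ δ) →
      ∀ v : C2, ‖v‖ ≤ 1 → ∃ α τ : V → C2, HolNear A α ∧ HolNear B τ ∧ (∀ z ∈ A, ‖α z‖ < ε) ∧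
        (∀ z ∈ B, ‖τ z‖ < ε) ∧ ∀ᶠ z in 𝓝ˢ (A ∩ B), v + α z = M z (v + τ z) := by
  obtain ⟨δ, hδ, key⟩ := ns_path hA hB hAB hW hABW (r := 1) one_pos ε hε
  refine ⟨δ / 2, by positivity, fun M hM hMb v hv => ?_⟩
  have h0I : (0 : ℝ) ∈ Icc (0 : ℝ) 1 := ⟨le_rfl, zero_le_one⟩
  have hmaps : MapsTo (fun x : V × C2 => x.1) (W ×ˢ ball (0 : C2) 1) W := fun x hx => hx.1
  have hD : DifferentiableOn ℂ (fun x : V × C2 => (M x.1 - 1) (v + x.2)) (W ×ˢ ball (0 : C2) 1) := by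
    have h1 : DifferentiableOn ℂ (fun x : V × C2 => M x.1 - 1) (W ×ˢ ball (0 : C2) 1) :=
      (hM.comp (f := fun x : V × C2 => x.1) differentiable_fst.differentiableOn hmaps).sub
        (differentiableOn_const _)
    exact h1.clm_apply (differentiable_snd.const_add v).differentiableOn
  obtain ⟨α, τ, ⟨Uα, hUα, hAU, hαd, -⟩, ⟨Uτ, hUτ, hBU, hτd, -⟩, h1, h2, h3⟩ :=
    key (fun _ x => (M x.1 - 1) (v + x.2)) (fun s _ => hD)
      (hD.continuousOn.comp (f := fun x : ℝ × (V × C2) => x.2) continuousOn_snd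
        fun x hx => hx.2)
      (fun s _ x hx => by
        have h4 := hMb x.1 hx.1
        have h5 : ‖x.2‖ ≤ 1 := (mem_ball_zero_iff.1 hx.2).le
        calc ‖(M x.1 - 1) (v + x.2)‖ ≤ ‖M x.1 - 1‖ * ‖v + x.2‖ := ContinuousLinearMap.le_opNorm _ _
          _ ≤ δ / 2 * (1 + 1) := by
            gcongr
            exact (norm_add_le _ _).trans (add_le_add hv h5)
          _ = δ := by ring)
  refine ⟨α 0, τ 0, ?_, ?_, h1 0 h0I, h2 0 h0I, ?_⟩
  · filter_upwards [hUα.mem_nhdsSet.2 hAU] with z hz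
    exact (hαd 0 h0I).differentiableAt (hUα.mem_nhds hz)
  · filter_upwards [hUτ.mem_nhdsSet.2 hBU] with z hz
    exact (hτd 0 h0I).differentiableAt (hUτ.mem_nhds hz)
  · filter_upwards [h3] with z hz
    have h4 := hz 0 h0I
    have h5 : α 0 z = τ 0 z + (M z (v + τ 0 z) - (v + τ 0 z)) := by
      have h6 : (M z - 1) (v + τ 0 z) = M z (v + τ 0 z) - (v + τ 0 z) := rfl
      rw [← h6, ← h4]
      abel
    rw [h5]
    abel

/-- Splitting of maps close to the identity. -/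
theorem split_near_one {A B W : Set V} (hA : Good A) (hB : Good B)
    (hAB : Convex ℝ (A ∪ B)) (hW : IsOpen W) (hABW : A ∩ B ⊆ W) :
    ∃ δ > 0, ∀ M : V → C2 →L[ℂ] C2, DifferentiableOn ℂ M W → (∀ z ∈ W, ‖M z - 1‖ ≤ δ) →
      ∃ P Q : V → C2 →L[ℂ] C2, HolNear A P ∧ HolNear B Q ∧ (∀ z ∈ A, IsUnit (P z)) ∧
        (∀ z ∈ B, IsUnit (Q z)) ∧ ∀ᶠ z in 𝓝ˢ (A ∩ B), P z = M z * Q z := by
  obtain ⟨δ, hδ, key⟩ := split_col hA hB hAB hW hABW (1 / 4) (by norm_num)
  refine ⟨δ, hδ, fun M hM hMb => ?_⟩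
  obtain ⟨α₁, τ₁, a1, b1, c1, d1, e1⟩ := key M hM hMb (1, 0) (by simp [Prod.norm_def])
  obtain ⟨α₂, τ₂, a2, b2, c2, d2, e2⟩ := key M hM hMb (0, 1) (by simp [Prod.norm_def])
  refine ⟨fun z => mk ((1, 0) + α₁ z) ((0, 1) + α₂ z), fun z => mk ((1, 0) + τ₁ z) ((0, 1) + τ₂ z),
    ?_, ?_, fun z hz => mk_isUnit (c1 z hz) (c2 z hz), fun z hz => mk_isUnit (d1 z hz) (d2 z hz),
    ?_⟩
  · filter_upwards [a1, a2] with z h1 h2
    exact mk_differentiableAt (h1.const_add _) (h2.const_add _)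
  · filter_upwards [b1, b2] with z h1 h2
    exact mk_differentiableAt (h1.const_add _) (h2.const_add _)
  · filter_upwards [e1, e2] with z h1 h2
    rw [h1, h2]
    ext <;> simp [mk_apply]

theorem HolNear.evUnit {R : Type} [NormedRing R] [NormedAlgebra ℂ R] [CompleteSpace R]
    {K : Set V} {M : V → R} (hM : HolNear K M) (hMu : ∀ z ∈ K, IsUnit (M z)) :
    ∀ᶠ z in 𝓝ˢ K, DifferentiableAt ℂ M z ∧ IsUnit (M z) := by
  refine eventually_nhdsSet_iff_forall.2 fun z hz => ?_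
  have h1 := eventually_nhdsSet_iff_forall.1 hM z hz
  exact h1.and (h1.self_of_nhds.continuousAt.eventually (Units.isOpen.mem_nhds (hMu z hz)))

/-- Cartan's lemma for `GL₂(ℂ)`. -/
theorem cartan {A B : Set V} (hA : Good A) (hB : Good B) (hAB : Convex ℝ (A ∪ B))
    {M : V → C2 →L[ℂ] C2} (hM : HolNear (A ∩ B) M) (hMu : ∀ z ∈ A ∩ B, IsUnit (M z)) :
    ∃ P Q : V → C2 →L[ℂ] C2, HolNear A P ∧ HolNear B Q ∧ (∀ z ∈ A, IsUnit (P z)) ∧
        (∀ z ∈ B, IsUnit (Q z)) ∧ ∀ᶠ z in 𝓝ˢ (A ∩ B), P z = M z * Q z := by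
  have : ProperSpace V := FiniteDimensional.proper ℂ V
  have gi : Good (A ∩ B) := ⟨hA.1.inter hB.1, hA.2.inter hB.2⟩
  obtain ⟨O, hO, hKO, hOp⟩ := eventually_nhdsSet_iff_exists.1 (HolNear.evUnit hM hMu)
  obtain ⟨κ, hκ, hκO⟩ := gi.1.exists_cthickening_subset_open hO hKO
  set K := cthickening κ (A ∩ B) with hK
  have gK : Good K := ⟨gi.1.cthickening, gi.2.cthickening κ⟩
  set W := thickening κ (A ∩ B) with hW
  have hWK : W ⊆ K := thickening_subset_cthickening _ _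
  have hWo : IsOpen W := isOpen_thickening
  have hiW : A ∩ B ⊆ W := self_subset_thickening hκ _
  obtain ⟨δ, hδ, key⟩ := split_near_one hA hB hAB hWo hiW
  have hKev : ∀ᶠ z in 𝓝ˢ K, DifferentiableAt ℂ M z ∧ IsUnit (M z) :=
    eventually_nhdsSet_iff_exists.2 ⟨O, hO, hκO, hOp⟩
  have hMK : HolNear K M := hKev.mono fun z hz => hz.1
  have hMKc : ContinuousOn M K := fun z hz =>
    (hMK.self_of_nhdsSet z hz).continuousAt.continuousWithinAt
  obtain ⟨β, hβ, hMβ⟩ := exists_bound gK.1 hMKc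
  have hinv : HolNear K (fun z => Ring.inverse (M z)) := hKev.mono fun z hz => hz.1.inverse hz.2
  obtain ⟨N, hN, hNu, hNM⟩ := appr_of_good gK hinv
    (fun z hz => (hKev.self_of_nhdsSet z hz).2.ringInverse) (δ / β) (by positivity)
  obtain ⟨P, Q, hP, hQ, hPu, hQu, hPQ⟩ := key (fun z => N z * M z) (by
      intro z hz
      exact (hN z).differentiableWithinAt.mul
        (hMK.self_of_nhdsSet z (hWK hz)).differentiableWithinAt) (by
      intro z hz
      have hzK := hWK hz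
      have h1 : N z * M z - 1 = (N z - Ring.inverse (M z)) * M z := by
        rw [sub_mul, Ring.inverse_mul_cancel _ (hKev.self_of_nhdsSet z hzK).2]
      rw [h1]
      calc _ ≤ ‖N z - Ring.inverse (M z)‖ * ‖M z‖ := norm_mul_le _ _
        _ ≤ (δ / β) * β := by
          gcongr
          · exact (hNM z hzK).le
          · exact hMβ z hzK
        _ = δ := by field_simp)
  refine ⟨fun z => Ring.inverse (N z) * P z, Q, ?_, hQ, fun z hz => (hNu z).ringInverse.mul (hPu z hz),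
    hQu, ?_⟩
  · filter_upwards [hP] with z hz
    exact ((hN z).inverse (hNu z)).mul hz
  · filter_upwards [hPQ] with z hz
    rw [hz, mul_assoc, Ring.inverse_mul_cancel_left _ _ (hNu z)]

end cartan

section cousin
variable {V : Type} [NormedAddCommGroup V] [NormedSpace ℂ V]
variable {A : Type} {O : A → Set V} {γ : A → A → V → C2 →L[ℂ] C2}

/-- `θ` solves the Cousin problem at the point `z` -/
def GSol (O : A → Set V) (γ : A → A → V → C2 →L[ℂ] C2) (θ : A → V → C2 →L[ℂ] C2) (z : V) : Prop :=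
  ∀ a, z ∈ O a →
      DifferentiableAt ℂ (θ a) z ∧ IsUnit (θ a z) ∧ ∀ b, z ∈ O b → θ b z = γ a b z * θ a z

theorem GSol.twist (hO : ∀ a, IsOpen (O a)) {θ θ' : A → V → C2 →L[ℂ] C2}
    {h : V → C2 →L[ℂ] C2} {z : V} (h1 : GSol O γ θ' z)
    (h2 : DifferentiableAt ℂ h z) (hu : IsUnit (h z))
    (h3 : ∀ᶠ y in 𝓝 z, ∀ a, y ∈ O a → θ a y = θ' a y * h y) : GSol O γ θ z := by
  intro a ha
  obtain ⟨d1, d2, d3⟩ := h1 a ha
  have h4 := h3.self_of_nhds
  have h5 : θ a =ᶠ[𝓝 z] fun y => θ' a y * h y := by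
    filter_upwards [h3, (hO a).mem_nhds ha] with y hy hya
    exact hy a hya
  refine ⟨(d1.mul h2).congr_of_eventuallyEq h5, ?_, ?_⟩
  · rw [h4 a ha]
    exact d2.mul hu
  · intro b hb
    rw [h4 a ha, h4 b hb, d3 b hb, mul_assoc]

theorem GSol.ratio {θ θ' : A → V → C2 →L[ℂ] C2} {z : V} (h1 : GSol O γ θ z) (h1' : GSol O γ θ' z)
    {a b : A} (ha : z ∈ O a) (hb : z ∈ O b) :
    Ring.inverse (θ b z) * θ' b z = Ring.inverse (θ a z) * θ' a z := by
  obtain ⟨-, d2, d3⟩ := h1 a ha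
  obtain ⟨-, d2', d3'⟩ := h1' a ha
  have hb2 := (h1 b hb).2.1
  rw [d3 b hb] at hb2
  have hg : IsUnit (γ a b z) := by
    have h5 : IsUnit (γ a b z * θ a z * Ring.inverse (θ a z)) := hb2.mul d2.ringInverse
    rwa [mul_assoc, Ring.mul_inverse_cancel _ d2, mul_one] at h5
  have h5 : θ a z * (Ring.inverse (θ b z) * θ' b z) = θ' a z := by
    obtain ⟨u, hu⟩ := d2
    obtain ⟨w, hw⟩ := hg
    rw [d3 b hb, d3' b hb, ← hu, ← hw, ← Units.val_mul, Ring.inverse_unit, mul_inv_rev,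
      Units.val_mul, ← mul_assoc, ← mul_assoc, ← mul_assoc, Units.mul_inv, one_mul, Units.inv_mul,
      one_mul]
  rw [← h5, ← mul_assoc (Ring.inverse (θ a z)), Ring.inverse_mul_cancel _ d2, one_mul]

theorem GSol.exists_ratio (hO : ∀ a, IsOpen (O a)) {K : Set V} (hcov : K ⊆ ⋃ a, O a)
    {θ θ' : A → V → C2 →L[ℂ] C2} (h1 : ∀ᶠ z in 𝓝ˢ K, GSol O γ θ z)
    (h1' : ∀ᶠ z in 𝓝ˢ K, GSol O γ θ' z) :
    ∃ M : V → C2 →L[ℂ] C2, HolNear K M ∧ (∀ z ∈ K, IsUnit (M z)) ∧ ∀ᶠ z in 𝓝ˢ K, ∀ a, z ∈ O a →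
      θ' a z = θ a z * M z := by
  classical
  have hev : ∀ᶠ z in 𝓝ˢ K, GSol O γ θ z ∧ GSol O γ θ' z ∧ ∃ a, z ∈ O a := by
    refine h1.and (h1'.and ?_)
    have : (⋃ a, O a) ∈ 𝓝ˢ K := (isOpen_iUnion hO).mem_nhdsSet.2 hcov
    filter_upwards [this] with z hz
    exact mem_iUnion.1 hz
  let ρ : V → C2 →L[ℂ] C2 := fun z =>
    if h : ∃ a, z ∈ O a then Ring.inverse (θ h.choose z) * θ' h.choose z else 1
  have hρ : ∀ z a, GSol O γ θ z → GSol O γ θ' z → z ∈ O a →
      ρ z = Ring.inverse (θ a z) * θ' a z := by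
    intro z a hz hz' ha
    have h : ∃ a, z ∈ O a := ⟨a, ha⟩
    simp only [ρ, dif_pos h]
    exact GSol.ratio hz hz' ha h.choose_spec
  refine ⟨ρ, ?_, ?_, ?_⟩
  · filter_upwards [ev_ev_nhdsSet hev] with z hz
    obtain ⟨hz1, hz2, a, ha⟩ := hz.self_of_nhds
    have h5 : ρ =ᶠ[𝓝 z] fun y => Ring.inverse (θ a y) * θ' a y := by
      filter_upwards [hz, (hO a).mem_nhds ha] with y hy hya
      exact hρ y a hy.1 hy.2.1 hya
    exact (((hz1 a ha).1.inverse (hz1 a ha).2.1).mul (hz2 a ha).1).congr_of_eventuallyEq h5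
  · intro z hz
    obtain ⟨hz1, hz2, a, ha⟩ := (eventually_nhdsSet_iff_forall.1 hev z hz).self_of_nhds
    rw [hρ z a hz1 hz2 ha]
    exact (hz1 a ha).2.1.ringInverse.mul (hz2 a ha).2.1
  · filter_upwards [hev] with z hz
    intro a ha
    rw [hρ z a hz.1 hz.2.1 ha, Ring.mul_inverse_cancel_left _ _ (hz.1 a ha).2.1]

/-- Cousin problem for `GL₂(ℂ)` near a compact convex set (in terms of units) -/
theorem cousinUnits [FiniteDimensional ℂ V] {S : Set V} (hS : Good S) {A : Type} (O : A → Set V)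
    (hO : ∀ a, IsOpen (O a)) (hcov : S ⊆ ⋃ a, O a) (γ : A → A → V → C2 →L[ℂ] C2)
    (hγ : ∀ a b, ∀ z ∈ O a ∩ O b, DifferentiableAt ℂ (γ a b) z ∧ IsUnit (γ a b z))
    (hcoc : ∀ a b c, ∀ z ∈ O a ∩ O b ∩ O c, γ a c z = γ b c z * γ a b z) :
    ∃ θ : A → V → C2 →L[ℂ] C2, ∀ᶠ z in 𝓝ˢ S, GSol O γ θ z := by
  classical
  refine hS.bisect (fun T => ∃ θ : A → V → C2 →L[ℂ] C2, ∀ᶠ z in 𝓝ˢ T, GSol O γ θ z) ?_ ?_ ?_
  · exact ⟨fun _ _ => 0, by simp only [nhdsSet_empty, eventually_bot]⟩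
  · intro z hz
    obtain ⟨a₀, ha₀⟩ := mem_iUnion.1 (hcov hz)
    refine ⟨O a₀, (hO a₀).mem_nhds ha₀, fun T _ _ hTU => ⟨fun b => γ a₀ b, ?_⟩⟩
    have : O a₀ ∈ 𝓝ˢ T := (hO a₀).mem_nhdsSet.2 hTU
    filter_upwards [this] with y hy
    intro a ha
    refine ⟨(hγ a₀ a y ⟨hy, ha⟩).1, (hγ a₀ a y ⟨hy, ha⟩).2, fun b hb => ?_⟩
    exact hcoc a₀ a b y ⟨⟨hy, ha⟩, hb⟩
  · intro T hT hTS l c hP' hP''
    obtain ⟨θ', hθ'⟩ := hP'
    obtain ⟨θ'', hθ''⟩ := hP''
    set T' := T ∩ {x | l x ≤ c} with hT'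
    set T'' := T ∩ {x | c ≤ l x} with hT''
    have gT' : Good T' := hT.inter_le l c
    have gT'' : Good T'' := hT.inter_ge l c
    have hun : T' ∪ T'' = T := by
      rw [hT', hT'', ← inter_union_distrib_left]
      refine inter_eq_left.2 fun x _ => ?_
      exact le_total (l x) c
    have m1 : 𝓝ˢ (T' ∩ T'') ≤ 𝓝ˢ T' := nhdsSet_mono inter_subset_left
    have m2 : 𝓝ˢ (T' ∩ T'') ≤ 𝓝ˢ T'' := nhdsSet_mono inter_subset_right
    obtain ⟨M, hM, hMu, hMr⟩ := GSol.exists_ratio hO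
      (inter_subset_left.trans (inter_subset_left.trans (hTS.trans hcov)))
      (hθ'.filter_mono m1) (hθ''.filter_mono m2)
    -- `θ'' = θ' M`, `P = M Q`, so `θ' P = θ'' Q`
    obtain ⟨P, Q, hP, hQ, hPu, hQu, hPQ⟩ := cartan gT' gT'' (by rw [hun]; exact hT.2) hM hMu
    let u' : V → A → C2 →L[ℂ] C2 := fun z a => if z ∈ O a then θ' a z * P z else 0
    let u'' : V → A → C2 →L[ℂ] C2 := fun z a => if z ∈ O a then θ'' a z * Q z else 0
    obtain ⟨u, hu', hu''⟩ := exists_glue gT'.1 gT''.1 u' u'' (by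
      filter_upwards [hMr, hPQ] with z hz hz'
      funext a
      simp only [u', u'']
      split_ifs with ha
      · rw [hz a ha, hz', mul_assoc]
      · rfl)
    refine ⟨fun a z => u z a, ?_⟩
    rw [← hun, nhdsSet_union, eventually_sup]
    constructor
    · filter_upwards [hθ', HolNear.evUnit hP hPu, ev_ev_nhdsSet hu'] with z h1 h2 h3
      refine h1.twist hO h2.1 h2.2 ?_
      filter_upwards [h3] with y hy a ha
      simp only [hy, ha, ↓reduceIte, u']
    · filter_upwards [hθ'', HolNear.evUnit hQ hQu, ev_ev_nhdsSet hu''] with z h1 h2 h3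
      refine h1.twist hO h2.1 h2.2 ?_
      filter_upwards [h3] with y hy a ha
      simp only [hy, ha, ↓reduceIte, u'']

theorem isUnit_iff_det (f : C2 →L[ℂ] C2) : IsUnit f ↔ f.det ≠ 0 := by
  rw [ContinuousLinearMap.isUnit_iff_isUnit_toLinearMap, LinearMap.isUnit_iff_isUnit_det,
    isUnit_iff_ne_zero]

end cousin

end Vale.Agent.P290.H245

namespace Vale.Agent.P290

/-- The Cousin problem for `GL₂(ℂ)` near a compact convex set. -/
theorem Good.cousinGL {V : Type} [NormedAddCommGroup V] [NormedSpace ℂ V] [FiniteDimensional ℂ V]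
    {S : Set V} (hS : Good S) {A : Type} (O : A → Set V) (hO : ∀ a, IsOpen (O a))
    (hcov : S ⊆ ⋃ a, O a) (γ : A → A → V → C2 →L[ℂ] C2)
    (hγ : ∀ a b, ∀ z ∈ O a ∩ O b, DifferentiableAt ℂ (γ a b) z ∧ (γ a b z).det ≠ 0)
    (hcoc : ∀ a b c, ∀ z ∈ O a ∩ O b ∩ O c, γ a c z = (γ b c z).comp (γ a b z)) :
    ∃ θ : A → V → C2 →L[ℂ] C2, ∀ᶠ z in 𝓝ˢ S, ∀ a, z ∈ O a →
      DifferentiableAt ℂ (θ a) z ∧ (θ a z).det ≠ 0 ∧
        ∀ b, z ∈ O b → θ b z = (γ a b z).comp (θ a z) := by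
  obtain ⟨θ, hθ⟩ := H245.cousinUnits hS O hO hcov γ
    (fun a b z hz => ⟨(hγ a b z hz).1, (H245.isUnit_iff_det _).2 (hγ a b z hz).2⟩) hcoc
  refine ⟨θ, hθ.mono fun z hz a ha => ?_⟩
  obtain ⟨h1, h2, h3⟩ := hz a ha
  exact ⟨h1, (H245.isUnit_iff_det _).1 h2, h3⟩

end Vale.Agent.P290
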